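import Vale.Agent.Lib.P274.Main

/-!
# P274, question Q2 in every dimension: simple connectivity from one tame extreme boundary point

Let `U` be a connected open subset of `ℂ ^ n` (Euclidean norm) on which a group `G` acts by
holomorphic maps with compact quotient `U / G`.  Let `b` be a boundary point of `U` at maximal
distance from some point `p` (so `U` is bounded).  If every loop in `U ∩ B(b, ε)` is
null-homotopic in `U` for some `ε > 0`, then `U` is simply connected.

Proper discontinuity of the action is not needed.
-/

namespace Vale.Agent.Results.P274.FarthestPointSimplyConnected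

theorem result (n : ℕ) (U : Set (EuclideanSpace ℂ (Fin n))) (hUo : IsOpen U)
    (hUc : IsConnected U)
    (G : Type*) [Group G] [MulAction G U]
    (hol : ∀ g : G, ∃ f : EuclideanSpace ℂ (Fin n) → EuclideanSpace ℂ (Fin n),
      DifferentiableOn ℂ f U ∧ ∀ z : U, f z = ((g • z : U) : EuclideanSpace ℂ (Fin n)))
    (hcpt : CompactSpace (MulAction.orbitRel.Quotient G U))
    (p b : EuclideanSpace ℂ (Fin n)) (hb : b ∈ frontier U)
    (hfar : ∀ z ∈ U, dist z p ≤ dist b p)
    (htame : ∃ ε > 0, ∀ (x : EuclideanSpace ℂ (Fin n)) (γ : Path x x),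
      (∀ t, γ t ∈ U ∩ Metric.ball b ε) → ∃ F : γ.Homotopy (Path.refl x), ∀ t, F t ∈ U) :
    IsSimplyConnected U :=
  Vale.Agent.Lib.P274.simply_connected_of_farthest hUo hUc hol hcpt hb hfar htame

end Vale.Agent.Results.P274.FarthestPointSimplyConnected
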