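import Vale.Agent.Lib.P274.SemiDisc

/-!
# P274, question Q2: three results in one statement

All three concern a connected open `U ⊆ ℂ ^ n` (Euclidean norm, every `n`) with a group `G`
acting by holomorphic maps and compact quotient `U / G`; proper discontinuity is not needed.

* (A) If `b` is a boundary point of `U` at maximal distance from some point `p`, and every loop
  in `U ∩ B(b, ε)` is null-homotopic in `U` for some `ε > 0`, then `U` is simply connected.
* (B) If `U` is a product of bounded connected open subsets `V i` of `ℂ`, each of them tame near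
  one of its boundary points, then `U` is biholomorphic to the unit polydisc and every point of
  `U` is the unique fixed point of a holomorphic involution of `U`.
* (C) The same conclusion when every `V i` is semialgebraic, with no tameness hypothesis.
-/

namespace Vale.Agent.Results.P274.Omnibus

theorem result :
    (∀ (n : ℕ) (U : Set (EuclideanSpace ℂ (Fin n))), IsOpen U → IsConnected U →
      ∀ (G : Type*) [Group G] [MulAction G U],
      (∀ g : G, ∃ f : EuclideanSpace ℂ (Fin n) → EuclideanSpace ℂ (Fin n),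
        DifferentiableOn ℂ f U ∧ ∀ z : U, f z = ((g • z : U) : EuclideanSpace ℂ (Fin n))) →
      CompactSpace (MulAction.orbitRel.Quotient G U) →
      ∀ (p b : EuclideanSpace ℂ (Fin n)), b ∈ frontier U →
      (∀ z ∈ U, dist z p ≤ dist b p) →
      (∃ ε > 0, ∀ (x : EuclideanSpace ℂ (Fin n)) (γ : Path x x),
        (∀ t, γ t ∈ U ∩ Metric.ball b ε) → ∃ F : γ.Homotopy (Path.refl x), ∀ t, F t ∈ U) →
      IsSimplyConnected U) ∧
    (∀ (n : ℕ) (V : Fin n → Set ℂ), (∀ i, IsOpen (V i)) → (∀ i, IsConnected (V i)) →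
      (∀ i, Bornology.IsBounded (V i)) →
      ∀ (U : Set (EuclideanSpace ℂ (Fin n))), U = {z | ∀ i, z i ∈ V i} →
      ∀ (G : Type*) [Group G] [MulAction G U],
      (∀ g : G, ∃ f : EuclideanSpace ℂ (Fin n) → EuclideanSpace ℂ (Fin n),
        DifferentiableOn ℂ f U ∧ ∀ z : U, f z = ((g • z : U) : EuclideanSpace ℂ (Fin n))) →
      CompactSpace (MulAction.orbitRel.Quotient G U) →
      (∀ i, ∃ b ∈ frontier (V i), ∃ ε > 0, ∀ (x : ℂ) (γ : Path x x),
        (∀ t, γ t ∈ V i ∩ Metric.ball b ε) → ∃ F : γ.Homotopy (Path.refl x), ∀ t, F t ∈ V i) →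
      (∃ Φ Ψ : EuclideanSpace ℂ (Fin n) → EuclideanSpace ℂ (Fin n),
        DifferentiableOn ℂ Φ U ∧
        DifferentiableOn ℂ Ψ {w : EuclideanSpace ℂ (Fin n) | ∀ i, ‖w i‖ < 1} ∧
        Set.MapsTo Φ U {w : EuclideanSpace ℂ (Fin n) | ∀ i, ‖w i‖ < 1} ∧
        Set.MapsTo Ψ {w : EuclideanSpace ℂ (Fin n) | ∀ i, ‖w i‖ < 1} U ∧
        (∀ z ∈ U, Ψ (Φ z) = z) ∧
        ∀ w ∈ {w : EuclideanSpace ℂ (Fin n) | ∀ i, ‖w i‖ < 1}, Φ (Ψ w) = w) ∧
      ∀ z ∈ U, ∃ s : EuclideanSpace ℂ (Fin n) → EuclideanSpace ℂ (Fin n),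
        DifferentiableOn ℂ s U ∧ Set.MapsTo s U U ∧
        (∀ w ∈ U, s (s w) = w) ∧ ∀ w ∈ U, (s w = w ↔ w = z)) ∧
    (∀ (n : ℕ) (V : Fin n → Set ℂ), (∀ i, IsOpen (V i)) → (∀ i, IsConnected (V i)) →
      (∀ i, Bornology.IsBounded (V i)) →
      ∀ (m : Fin n → ℕ) (p : ∀ i, Fin (m i) → MvPolynomial (Fin 2) ℝ)
        (S : ∀ i, Set (Fin (m i) → SignType)),
      (∀ i, V i =
        {z : ℂ | (fun j => SignType.sign (MvPolynomial.eval ![z.re, z.im] (p i j))) ∈ S i}) →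
      ∀ (U : Set (EuclideanSpace ℂ (Fin n))), U = {z | ∀ i, z i ∈ V i} →
      ∀ (G : Type*) [Group G] [MulAction G U],
      (∀ g : G, ∃ f : EuclideanSpace ℂ (Fin n) → EuclideanSpace ℂ (Fin n),
        DifferentiableOn ℂ f U ∧ ∀ z : U, f z = ((g • z : U) : EuclideanSpace ℂ (Fin n))) →
      CompactSpace (MulAction.orbitRel.Quotient G U) →
      (∃ Φ Ψ : EuclideanSpace ℂ (Fin n) → EuclideanSpace ℂ (Fin n),
        DifferentiableOn ℂ Φ U ∧
        DifferentiableOn ℂ Ψ {w : EuclideanSpace ℂ (Fin n) | ∀ i, ‖w i‖ < 1} ∧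
        Set.MapsTo Φ U {w : EuclideanSpace ℂ (Fin n) | ∀ i, ‖w i‖ < 1} ∧
        Set.MapsTo Ψ {w : EuclideanSpace ℂ (Fin n) | ∀ i, ‖w i‖ < 1} U ∧
        (∀ z ∈ U, Ψ (Φ z) = z) ∧
        ∀ w ∈ {w : EuclideanSpace ℂ (Fin n) | ∀ i, ‖w i‖ < 1}, Φ (Ψ w) = w) ∧
      ∀ z ∈ U, ∃ s : EuclideanSpace ℂ (Fin n) → EuclideanSpace ℂ (Fin n),
        DifferentiableOn ℂ s U ∧ Set.MapsTo s U U ∧
        (∀ w ∈ U, s (s w) = w) ∧ ∀ w ∈ U, (s w = w ↔ w = z)) := by
  refine ⟨?_, ?_, ?_⟩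
  · intro n U hUo hUc G _ _ hol hcpt p b hb hfar htame
    exact Vale.Agent.Lib.P274.simply_connected_of_farthest hUo hUc hol hcpt hb hfar htame
  · intro n V hVo hVc hVb U hU G _ act hol hcpt htame
    subst hU
    exact @Vale.Agent.Lib.P274.prodSet_polydisc n V hVo hVc hVb G _ act hol hcpt htame
  · intro n V hVo hVc hVb m p S hsa U hU G _ act hol hcpt
    subst hU
    exact @Vale.Agent.Lib.P274.prodSet_semialg_polydisc n V hVo hVc hVb m p S hsa G _ act hol hcpt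

end Vale.Agent.Results.P274.Omnibus
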