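import Vale.Agent.Lib.P274.SemiDisc

/-!
# P274, question Q2 for semialgebraic domains in the complex line

Let `U` be a bounded connected open subset of `ℂ` which is semialgebraic: membership of `z` in
`U` is decided by the signs at `(Re z, Im z)` of finitely many real polynomials in two variables
(every finite Boolean combination of polynomial equalities and inequalities has this form).
Let a group `G` act on `U` by holomorphic maps with compact quotient `U / G`.  Then `U` is
biholomorphic to the unit disc, and every point of `U` is the unique fixed point of a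
holomorphic involution of `U`, so `U` is a bounded symmetric domain.

Proper discontinuity of the action is not needed.  The proof contains: the existence of a
boundary point near which `U` is one side of a graph (from the polynomial description), a
Harnack argument moving any loop of `U` close to that point by a group element, and the Riemann
mapping theorem for bounded simply connected planar domains.
-/

namespace Vale.Agent.Results.P274.PlanarSemialgebraicDisc

theorem result (U : Set ℂ) (hUo : IsOpen U) (hUc : IsConnected U)
    (hUb : Bornology.IsBounded U)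
    (m : ℕ) (p : Fin m → MvPolynomial (Fin 2) ℝ) (S : Set (Fin m → SignType))
    (hsa : U = {z : ℂ | (fun j => SignType.sign (MvPolynomial.eval ![z.re, z.im] (p j))) ∈ S})
    (G : Type*) [Group G] [MulAction G U]
    (hol : ∀ g : G, ∃ f : ℂ → ℂ, DifferentiableOn ℂ f U ∧ ∀ z : U, f z = ((g • z : U) : ℂ))
    (hcpt : CompactSpace (MulAction.orbitRel.Quotient G U)) :
    (∃ f g : ℂ → ℂ, DifferentiableOn ℂ f U ∧ DifferentiableOn ℂ g (Metric.ball 0 1) ∧
      Set.MapsTo f U (Metric.ball 0 1) ∧ Set.MapsTo g (Metric.ball 0 1) U ∧
      (∀ z ∈ U, g (f z) = z) ∧ ∀ w ∈ Metric.ball (0 : ℂ) 1, f (g w) = w) ∧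
    ∀ z ∈ U, ∃ s : ℂ → ℂ, DifferentiableOn ℂ s U ∧ Set.MapsTo s U U ∧
      (∀ w ∈ U, s (s w) = w) ∧ ∀ w ∈ U, (s w = w ↔ w = z) :=
  Vale.Agent.Lib.P274.planar_semialg_disc hUo hUc hUb p S hsa hol hcpt

end Vale.Agent.Results.P274.PlanarSemialgebraicDisc
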