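import Vale.Agent.Lib.P274.SemiDisc

/-!
# P274, question Q2 for products of semialgebraic planar domains, in every dimension

Let `V 1, ..., V n` be bounded connected open semialgebraic subsets of `ℂ` (membership of `z` in
`V i` is decided by the signs at `(Re z, Im z)` of finitely many real polynomials), and let `U`
be their product inside `ℂ ^ n`; it is a bounded connected open semialgebraic subset of `ℂ ^ n`.
Let a group `G` act on `U` by holomorphic maps (not assumed to respect the product structure)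
with compact quotient `U / G`.  Then `U` is biholomorphic to the unit polydisc, and every point
of `U` is the unique fixed point of a holomorphic involution of `U`, so `U` is a bounded
symmetric domain.

Proper discontinuity of the action is not needed.
-/

namespace Vale.Agent.Results.P274.ProductSemialgebraicPolydisc

theorem result (n : ℕ) (V : Fin n → Set ℂ) (hVo : ∀ i, IsOpen (V i))
    (hVc : ∀ i, IsConnected (V i)) (hVb : ∀ i, Bornology.IsBounded (V i))
    (m : Fin n → ℕ) (p : ∀ i, Fin (m i) → MvPolynomial (Fin 2) ℝ)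
    (S : ∀ i, Set (Fin (m i) → SignType))
    (hsa : ∀ i, V i =
      {z : ℂ | (fun j => SignType.sign (MvPolynomial.eval ![z.re, z.im] (p i j))) ∈ S i})
    (U : Set (EuclideanSpace ℂ (Fin n))) (hU : U = {z | ∀ i, z i ∈ V i})
    (G : Type*) [Group G] [act : MulAction G U]
    (hol : ∀ g : G, ∃ f : EuclideanSpace ℂ (Fin n) → EuclideanSpace ℂ (Fin n),
      DifferentiableOn ℂ f U ∧ ∀ z : U, f z = ((g • z : U) : EuclideanSpace ℂ (Fin n)))
    (hcpt : CompactSpace (MulAction.orbitRel.Quotient G U)) :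
    (∃ Φ Ψ : EuclideanSpace ℂ (Fin n) → EuclideanSpace ℂ (Fin n),
      DifferentiableOn ℂ Φ U ∧
      DifferentiableOn ℂ Ψ {w : EuclideanSpace ℂ (Fin n) | ∀ i, ‖w i‖ < 1} ∧
      Set.MapsTo Φ U {w : EuclideanSpace ℂ (Fin n) | ∀ i, ‖w i‖ < 1} ∧
      Set.MapsTo Ψ {w : EuclideanSpace ℂ (Fin n) | ∀ i, ‖w i‖ < 1} U ∧
      (∀ z ∈ U, Ψ (Φ z) = z) ∧
      ∀ w ∈ {w : EuclideanSpace ℂ (Fin n) | ∀ i, ‖w i‖ < 1}, Φ (Ψ w) = w) ∧
    ∀ z ∈ U, ∃ s : EuclideanSpace ℂ (Fin n) → EuclideanSpace ℂ (Fin n),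
      DifferentiableOn ℂ s U ∧ Set.MapsTo s U U ∧
      (∀ w ∈ U, s (s w) = w) ∧ ∀ w ∈ U, (s w = w ↔ w = z) := by
  subst hU
  exact @Vale.Agent.Lib.P274.prodSet_semialg_polydisc n V hVo hVc hVb m p S hsa G _ act hol hcpt

end Vale.Agent.Results.P274.ProductSemialgebraicPolydisc
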